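import Mathlib

namespace Vale.Agent.Lib.P131.Nil

variable {H : Type*} [NormedAddCommGroup H] [InnerProductSpace ℂ H]

/-- products `(A S₁)(A S₂)⋯(A S_j)` with all `S_i` commuting with `T` -/
def Prods (T A : H →L[ℂ] H) : ℕ → Set (H →L[ℂ] H)
  | 0 => {1}
  | (j + 1) => {Z | ∃ S Y : H →L[ℂ] H, S * T = T * S ∧ Y ∈ Prods T A j ∧ Z = A * S * Y}

/-- If all `k`-fold products `(A S₁)⋯(A S_k)` vanish, then `T` has a nontrivial hyperinvariant
subspace. -/
theorem abstract_nil (T A : H →L[ℂ] H) (hA : A ≠ 0) (k : ℕ)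
    (hk : ∀ Y ∈ Prods T A k, Y = 0) :
    ∃ M : Submodule ℂ H, IsClosed (M : Set H) ∧ M ≠ ⊥ ∧ M ≠ ⊤ ∧
      ∀ S : H →L[ℂ] H, S * T = T * S → ∀ x ∈ M, S x ∈ M := by
  classical
  have hex : ∃ j, ∀ Y ∈ Prods T A j, Y = 0 := ⟨k, hk⟩
  set j0 := Nat.find hex with hj0
  have hj0spec : ∀ Y ∈ Prods T A j0, Y = 0 := Nat.find_spec hex
  have hone : (1 : H →L[ℂ] H) ≠ 0 := by
    intro h
    apply hA
    calc A = A * 1 := (mul_one A).symm
      _ = 0 := by rw [h, mul_zero]
  have hj0ne : j0 ≠ 0 := by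
    intro h0
    rw [h0] at hj0spec
    exact hone (hj0spec 1 rfl)
  obtain ⟨j, hj⟩ : ∃ j, j0 = j + 1 := ⟨j0 - 1, by omega⟩
  have hnot : ¬ ∀ Y ∈ Prods T A j, Y = 0 := Nat.find_min hex (by omega)
  obtain ⟨Y, hY, hY0⟩ : ∃ Y ∈ Prods T A j, Y ≠ 0 := by
    by_contra hcon
    exact hnot (fun Y hY => by_contra (fun h => hcon ⟨Y, hY, h⟩))
  obtain ⟨h, hh⟩ : ∃ h, Y h ≠ 0 := by
    by_contra hcon
    apply hY0
    ext x
    by_contra hx
    exact hcon ⟨x, hx⟩
  let N : Submodule ℂ H :=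
    { carrier := {x | ∀ S : H →L[ℂ] H, S * T = T * S → A (S x) = 0}
      add_mem' := by
        intro x y hx hy S hS
        rw [map_add, map_add, hx S hS, hy S hS, add_zero]
      zero_mem' := by
        intro S _
        rw [map_zero, map_zero]
      smul_mem' := by
        intro c x hx S hS
        rw [map_smul, map_smul, hx S hS, smul_zero] }
  have hNmem : ∀ x, x ∈ N ↔ ∀ S : H →L[ℂ] H, S * T = T * S → A (S x) = 0 := fun x => Iff.rfl
  refine ⟨N, ?_, ?_, ?_, ?_⟩
  · have : (N : Set H) = ⋂ (S : H →L[ℂ] H), ⋂ (_ : S * T = T * S), {x | A (S x) = 0} := by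
      ext x
      simp only [Set.mem_iInter]
      exact hNmem x
    rw [this]
    refine isClosed_iInter (fun S => isClosed_iInter (fun _ => ?_))
    exact isClosed_eq (A.continuous.comp S.continuous) continuous_const
  · intro hbot
    have hmem : Y h ∈ N := by
      rw [hNmem]
      intro S hS
      have hz : A * S * Y = 0 := by
        apply hj0spec
        rw [hj]
        exact ⟨S, Y, hS, hY, rfl⟩
      have := congrArg (fun Z : H →L[ℂ] H => Z h) hz
      simpa using this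
    rw [hbot] at hmem
    exact hh ((Submodule.mem_bot ℂ).mp hmem)
  · intro htop
    apply hA
    ext x
    have hx : x ∈ N := by rw [htop]; exact Submodule.mem_top
    have := (hNmem x).mp hx 1 (by rw [one_mul, mul_one])
    simpa using this
  · intro S hS x hx
    rw [hNmem] at hx ⊢
    intro S' hS'
    have hSS : (S' * S) * T = T * (S' * S) := by
      rw [mul_assoc, hS, ← mul_assoc, hS', mul_assoc]
    have := hx (S' * S) hSS
    simpa using this

end Vale.Agent.Lib.P131.Nil
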